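import Vale.Agent.P088.H72.X.Defs
import Vale.Agent.P088.H72.Norm
import Vale.Agent.P088.H442.CFScale
import Vale.Agent.P088.H695.CFIso

/-!
# P088, conformally flat base, no condition at the boundary: from the ball to every smooth bounded
domain (cut-off of the conformal factor, scaling), and from tensors to metrics
-/

open MeasureTheory Set
open scoped ContDiff Matrix

noncomputable section

namespace Vale.Agent.P088.H607

open Vale.Agent.P088.LR Vale.Agent.P088.LR.B Vale.Agent.P088.LR.CF Vale.Agent.P088.LR.BX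
  Vale.Agent.P088.LR.H925 Vale.Agent.P088.H639

variable {n : ℕ}

/-- Normalisation of the domain. -/
theorem exists_dom_bal {ρ : V n → ℝ} (h : SDom ρ) : ∃ t : ℝ, 1 ≤ t ∧ ∃ ρ' : V n → ℝ, Dom ρ' ∧
    (∀ y ∉ bal n, ρ' y = -1) ∧ (∀ y, 0 < ρ' y ↔ 0 < ρ (ps t y)) ∧
    (∀ y, ρ' y = 0 ↔ ρ (ps t y) = 0) ∧ (∀ y, 0 ≤ ρ' y → chi442 y = 1) := by
  obtain ⟨R, hR⟩ := h.bd.subset_closedBall (0 : V n)
  set R' : ℝ := max R 1 with hR'
  have hR1 : 1 ≤ R' := le_max_right _ _
  set t : ℝ := 16 * ((n : ℝ) + 1) * R' with ht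
  have hn0 : (0 : ℝ) ≤ n := Nat.cast_nonneg n
  have ht0 : 0 < t := by positivity
  have ht1 : 1 ≤ t := by
    rw [ht]
    nlinarith [mul_nonneg hn0 (zero_le_one.trans hR1)]
  have hin : ∀ y, 0 ≤ ρ (ps t y) → ∑ j, (y j - 1 / 2) ^ 2 < 1 / 64 := by
    intro y hy
    have h1 : ps t y ∈ Metric.closedBall (0 : V n) R := hR hy
    rw [mem_closedBall_zero_iff] at h1
    have h2 : ∀ j, (y j - 1 / 2) ^ 2 ≤ (1 / (16 * ((n : ℝ) + 1))) ^ 2 := by
      intro j
      have h3 : |t * (y j - 1 / 2)| ≤ R' := by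
        have h4 : ‖ps t y j‖ ≤ ‖ps t y‖ := norm_le_pi_norm _ j
        have h5 : ps t y j = t * (y j - 1 / 2) := rfl
        rw [h5, Real.norm_eq_abs] at h4
        exact h4.trans (h1.trans (le_max_left _ _))
      rw [abs_mul, abs_of_pos ht0, ht] at h3
      have h6 : |y j - 1 / 2| ≤ 1 / (16 * ((n : ℝ) + 1)) := by
        rw [le_div_iff₀ (by positivity)]
        have h7 : |y j - 1 / 2| * (16 * ((n : ℝ) + 1)) * R' ≤ 1 * R' := by
          calc |y j - 1 / 2| * (16 * ((n : ℝ) + 1)) * R'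
              = 16 * ((n : ℝ) + 1) * R' * |y j - 1 / 2| := by ring
            _ ≤ R' := h3
            _ = 1 * R' := by ring
        exact le_of_mul_le_mul_right h7 (by linarith)
      rw [← sq_abs]
      exact pow_le_pow_left₀ (abs_nonneg _) h6 2
    calc ∑ j, (y j - 1 / 2) ^ 2 ≤ ∑ _j : Fin n, (1 / (16 * ((n : ℝ) + 1))) ^ 2 :=
          Finset.sum_le_sum fun j _ => h2 j
      _ = n * (1 / (16 * ((n : ℝ) + 1))) ^ 2 := by simp
      _ < 1 / 64 := by
          rw [div_pow, one_pow, mul_one_div, div_lt_div_iff₀ (by positivity) (by norm_num)]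
          nlinarith
  have hUo : IsOpen {y : V n | ∑ j, (y j - 1 / 2) ^ 2 < 1 / 64} := by
    refine isOpen_lt ?_ continuous_const
    fun_prop
  have hχ1 : ∀ y, 0 ≤ ρ (ps t y) → chi442 y = 1 := fun y hy => chi_one442 (hin y hy).le
  let ρ' : V n → ℝ := fun y => chi442 y * ρ (ps t y) - (1 - chi442 y)
  have hA : ∀ y, 0 ≤ ρ (ps t y) → ρ' y = ρ (ps t y) := by
    intro y hy
    show chi442 y * ρ (ps t y) - (1 - chi442 y) = _
    rw [hχ1 y hy]; ring
  have hB : ∀ y, ρ (ps t y) < 0 → ρ' y < 0 := by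
    intro y hy
    show chi442 y * ρ (ps t y) - (1 - chi442 y) < 0
    rcases (chi_le_one442 y).lt_or_eq with h1 | h1
    · have : chi442 y * ρ (ps t y) ≤ 0 := mul_nonpos_of_nonneg_of_nonpos (chi_nonneg442 y) hy.le
      linarith
    · rw [h1]; linarith
  have hz : ∀ y, ρ' y = 0 ↔ ρ (ps t y) = 0 := by
    intro y
    rcases lt_or_ge (ρ (ps t y)) 0 with h1 | h1
    · exact ⟨fun h2 => absurd h2 (hB y h1).ne, fun h2 => absurd h2 h1.ne⟩
    · rw [hA y h1]
  have hpos : ∀ y, 0 < ρ' y ↔ 0 < ρ (ps t y) := by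
    intro y
    rcases lt_or_ge (ρ (ps t y)) 0 with h1 | h1
    · exact ⟨fun h2 => absurd h2 (hB y h1).le.not_gt, fun h2 => absurd h2 h1.le.not_gt⟩
    · rw [hA y h1]
  have hnn : ∀ y, 0 ≤ ρ' y → 0 ≤ ρ (ps t y) := by
    intro y hy
    by_contra hc
    exact absurd hy (hB y (not_le.1 hc)).not_ge
  have hsm : ContDiff ℝ ∞ ρ' :=
    (chi_smooth442.mul (h.sm.comp (contDiff_ps t))).sub (contDiff_const.sub chi_smooth442)
  have hoff : ∀ y ∉ bal n, ρ' y = -1 := by
    intro y hy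
    show chi442 y * ρ (ps t y) - (1 - chi442 y) = -1
    rw [chi_zero442 hy]; ring
  refine ⟨t, ht1, ρ', ⟨hsm, fun y hy => hoff y fun h' => hy (bal_subset_core442 h'), ?_⟩, hoff,
    hpos, hz, fun y hy => hχ1 y (hnn y hy)⟩
  intro y hy
  have h0 : ρ (ps t y) = 0 := (hz y).1 hy
  have h1 : y ∈ {y : V n | ∑ j, (y j - 1 / 2) ^ 2 < 1 / 64} := hin y h0.ge
  have h2 : ρ' =ᶠ[nhds y] fun y => ρ (ps t y) := by
    filter_upwards [hUo.mem_nhds h1] with z hz'
    show chi442 z * ρ (ps t z) - (1 - chi442 z) = _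
    rw [chi_one442 (le_of_lt hz')]; ring
  rw [h2.fderiv_eq]
  have h6 : HasFDerivAt (fun y => ρ (ps t y))
      ((fderiv ℝ ρ (ps t y)).comp (t • ContinuousLinearMap.id ℝ (V n))) y :=
    HasFDerivAt.comp y (h.sm.differentiable (by simp) _).hasFDerivAt (fd_ps t y)
  rw [h6.fderiv]
  intro h7
  apply h.nz _ h0
  ext v
  have h8 := congrArg (fun T : V n →L[ℝ] ℝ => T v) h7
  simp only [ContinuousLinearMap.comp_apply, smul_apply,
    ContinuousLinearMap.id_apply, map_smul, smul_eq_mul, zero_apply] at h8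
  rcases mul_eq_zero.1 h8 with h9 | h9
  · exact absurd h9 ht0.ne'
  · rw [h9]; rfl

/-- The energies depend only on the tensor in `Ω`. -/
theorem En_congr607 {Ω : Set (V n)} (hΩ : MeasurableSet Ω) {s s' : MF n}
    (h : ∀ x ∈ Ω, s x = s' x) (f : V n → ℝ) : En Ω s f = En Ω s' f := by
  have h1 : ∀ u : V n → ℝ, rb Ω s u u = rb Ω s' u u := by
    intro u
    unfold rb
    refine setIntegral_congr_fun hΩ fun x hx => ?_
    simp only [h x hx]
  unfold En
  simp only [h1]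

/-- Equality of the energies is invariant under scaling, general base. -/
theorem SE_ps607 (t : ℝ) (ht : 0 < t) (Ω : Set (V n)) (hO : IsOpen Ω) (s₁ s : MF n)
    (h : SE Ω s₁ s) : SE (ps t ⁻¹' Ω) (rs t s₁) (rs t s) := by
  intro f hf
  have h1 := En_ps ht Ω hO.measurableSet s₁ f
  have h2 := En_ps ht Ω hO.measurableSet s f
  have h3 : En Ω s₁ (fun x => f (ph t x)) = En Ω s (fun x => f (ph t x)) :=
    h _ (hf.comp (contDiff_ph t))
  rw [h1, h2, h3]

theorem posDef_sg607 {g : MF n} (hp : ∀ x, (g x).PosDef) (x : V n) : (sg g x).PosDef :=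
  (hp x).inv.smul (Real.sqrt_pos.2 (hp x).det_pos)

/-- **Row X_SC.** -/
theorem finC (hF : BX.RowFIN) : BX.FinC := by
  intro n hn ρ hρ
  obtain ⟨t, ht1, ρ', hρ', hoff, hpos, hz, hχρ⟩ := exists_dom_bal hρ
  have ht0 : 0 < t := by linarith
  obtain ⟨k, ε, hε, hF⟩ := hF n hn ρ' hρ' hoff
  obtain ⟨B, hB, hχ⟩ := chi_cl442 n k
  obtain ⟨δ0, hδ0, hnorm0⟩ := H72.norm0 n k ε hε
  obtain ⟨δs, hδs, hsml⟩ := small_sgm442 n k hε
  have hM : 0 < max 1 t ^ k := by positivity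
  refine ⟨k, min (δ0 / max 1 t ^ k) (δs / (2 ^ k * (B * max 1 t ^ k))), by positivity,
    fun c g hc hc0 hg hgp hcC hgC hSE => ?_⟩
  have hOm : Om ρ' = ps t ⁻¹' Om ρ := by
    ext y
    exact hpos y
  have hO : IsOpen (Om ρ) := isOpen_lt continuous_const hρ.sm.continuous
  have hO' : IsOpen (Om ρ') := isOpen_lt continuous_const hρ'.sm.continuous
  have hg' : SmM (rs t g) := fun i j => (hg i j).comp (contDiff_ps t)
  have hgp' : ∀ x, (rs t g x).PosDef := fun x => hgp _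
  have hC' : ∀ i j, Cl k δ0 (fun x => rs t g x i j - (1 : Matrix (Fin n) (Fin n) ℝ) i j) := by
    intro i j
    have := cl_ps ((hg i j).sub contDiff_const) ht0
      (H72.cl_mono (hgC i j) (min_le_left _ _))
    rwa [mul_div_cancel₀ _ hM.ne'] at this
  -- the cut-off conformal factor
  obtain ⟨c', hc'e⟩ : ∃ c' : V n → ℝ, c' = fun y => 1 + chi442 y * (c (ps t y) - 1) := ⟨_, rfl⟩
  have hcps : ContDiff ℝ ∞ (fun y => c (ps t y) - 1) :=
    (hc.comp (contDiff_ps t)).sub contDiff_const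
  have hc's : ContDiff ℝ ∞ c' := by
    rw [hc'e]; exact contDiff_const.add (chi_smooth442.mul hcps)
  have hc'0 : ∀ y, 0 < c' y := by
    intro y
    have h1 := chi_nonneg442 y
    have h2 := chi_le_one442 y
    have h3 := hc0 (ps t y)
    have h4 : c' y = (1 - chi442 y) + chi442 y * c (ps t y) := by rw [hc'e]; ring
    rw [h4]
    rcases h2.lt_or_eq with h5 | h5
    · have := mul_nonneg h1 h3.le
      linarith
    · rw [h5]; linarith
  have hc'1 : ∀ y ∉ bal n, c' y = 1 := by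
    intro y hy
    rw [hc'e]
    show 1 + chi442 y * (c (ps t y) - 1) = 1
    rw [chi_zero442 hy]; ring
  have hc'on : ∀ y, 0 ≤ ρ' y → c' y = c (ps t y) := by
    intro y hy
    rw [hc'e]
    show 1 + chi442 y * (c (ps t y) - 1) = _
    rw [hχρ y hy]; ring
  have hfin : 2 ^ k * (B * (max 1 t ^ k * (δs / (2 ^ k * (B * max 1 t ^ k))))) = δs := by
    field_simp
  have hc'c : Cl k δs (fun y => c' y - 1) := by
    have h1 := cl_mul442 chi_smooth442 hcps hχ
      (cl_ps (hc.sub contDiff_const) ht0 (H72.cl_mono hcC (min_le_right _ _)))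
    rw [hfin] at h1
    have h2 : (fun y => c' y - 1) = fun y => chi442 y * (c (ps t y) - 1) := by
      funext y
      rw [hc'e]
      show 1 + chi442 y * (c (ps t y) - 1) - 1 = _
      ring
    rw [h2]; exact h1
  have hσ1 : ∀ x ∉ bal n, sgm442 c' x = 1 := by
    intro x hx
    rw [sgm442, hc'1 x hx, one_pow, Real.sqrt_one, inv_one, one_mul]
  have hSE' : SE (Om ρ') (sc (sgm442 c')) (sg (rs t g)) := by
    have h1 := SE_ps607 t ht0 (Om ρ) hO _ _ hSE
    rw [← hOm] at h1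
    intro f hf
    have h2 := h1 f hf
    have h3 : En (Om ρ') (sc (sgm442 c')) f = En (Om ρ') (rs t (sg (sc c))) f := by
      refine En_congr607 hO'.measurableSet (fun y hy => ?_) f
      have hy' : 0 < ρ' y := hy
      rw [sg_sc442 hc0]
      show sgm442 c' y • (1 : Matrix (Fin n) (Fin n) ℝ) = sgm442 c (ps t y) • 1
      unfold sgm442
      rw [hc'on y hy'.le]
    rw [h3, h2]
    rfl
  obtain ⟨Φ, Ψ, hΦ, hΨ, h1, h2, h3, h4, h5, h6⟩ := hF (sgm442 c')
    ⟨sgm_smooth442 hc's hc'0, sgm_pos442 hc'0⟩ hσ1 (hsml c' hc's hc'c) (sg (rs t g))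
    (H442.smM_sg442 hg' hgp') (posDef_sg607 hgp') (hnorm0 (rs t g) hg' hC') hSE'
  -- the metric
  have hmet : ∀ y, 0 ≤ ρ' y → rs t g y = c (ps t (Φ y)) • ((Jm Φ y)ᵀ * Jm Φ y) := by
    intro y hy
    have hΦy : 0 ≤ ρ' (Φ y) := by
      rcases hy.lt_or_eq with h | h
      · exact ((h4 y).2 h).le
      · rw [h3 y h.symm]; exact hy
    rw [← hc'on _ hΦy]
    have h7 := h6 y hy
    rw [← sg_sc442 hc'0] at h7
    obtain ⟨m, rfl⟩ : ∃ m, n = m + 3 := ⟨n - 3, by omega⟩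
    exact H695.iso_mat2 (Jm Φ y) (rs t g y) (hc'0 _) (h5 y) (hgp' y).det_pos h7
  refine ⟨fun x => ps t (Φ (ph t x)), fun x => ps t (Ψ (ph t x)),
    (contDiff_ps t).comp (hΦ.comp (contDiff_ph t)), (contDiff_ps t).comp (hΨ.comp (contDiff_ph t)),
    ?_, ?_, ?_, ?_, ?_, ?_⟩
  · intro x
    show ps t (Ψ (ph t (ps t (Φ (ph t x))))) = x
    rw [ph_ps ht0.ne', h1, ps_ph ht0.ne']
  · intro x
    show ps t (Φ (ph t (ps t (Ψ (ph t x))))) = x
    rw [ph_ps ht0.ne', h2, ps_ph ht0.ne']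
  · intro x hx
    show ps t (Φ (ph t x)) = x
    rw [h3 (ph t x) ((hz _).2 (by rw [ps_ph ht0.ne']; exact hx)), ps_ph ht0.ne']
  · intro x
    show 0 < ρ (ps t (Φ (ph t x))) ↔ _
    rw [← hpos, h4, hpos, ps_ph ht0.ne']
  · intro x
    rw [Jm_scale hΦ ht0.ne']
    exact h5 _
  · intro x hx
    rw [Jm_scale hΦ ht0.ne']
    have hx' : 0 ≤ ρ' (ph t x) := by
      rcases hx.lt_or_eq with h | h
      · exact ((hpos _).2 (by rw [ps_ph ht0.ne']; exact h)).le
      · exact ((hz _).2 (by rw [ps_ph ht0.ne']; exact h.symm)).ge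
    have h7 := hmet (ph t x) hx'
    have e : rs t g (ph t x) = g x := by
      show g (ps t (ph t x)) = g x
      rw [ps_ph ht0.ne']
    rwa [e] at h7

end Vale.Agent.P088.H607
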