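import Vale.Agent.P088.H72.X.Defs2
import Vale.Agent.P088.H607.XSc
import Vale.Agent.P088.H924.NQ

/-!
# P088, arbitrary conformally flat base, no condition at the boundary: from the ball to every smooth
bounded domain (cut-off of the metrics, scaling), and from tensors to metrics
-/

open MeasureTheory Set
open scoped ContDiff Matrix

noncomputable section

namespace Vale.Agent.P088.H607

open Vale.Agent.P088.LR Vale.Agent.P088.LR.B Vale.Agent.P088.LR.CF Vale.Agent.P088.LR.H925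
  Vale.Agent.P088.H639

variable {n : ℕ}

/-- The density of `c h`. -/
theorem sg_smul607 {c : V n → ℝ} (hc : ∀ x, 0 < c x) {h : MF n} (hh : ∀ x, (h x).PosDef)
    (x : V n) : sg (fun y => c y • h y) x = sgm442 c x • sg h x := by
  have h0 : c x ≠ 0 := ne_of_gt (hc x)
  have hu : IsUnit (h x).det := isUnit_iff_ne_zero.mpr (hh x).det_pos.ne'
  have h1 : (c x • h x)⁻¹ = (c x)⁻¹ • (h x)⁻¹ := by
    refine Matrix.inv_eq_right_inv ?_
    rw [Matrix.smul_mul, Matrix.mul_smul, smul_smul, mul_inv_cancel₀ h0, one_smul,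
      Matrix.mul_nonsing_inv _ hu]
  show √(c x • h x).det • (c x • h x)⁻¹ = (√((c x) ^ n) * (c x)⁻¹) • (√(h x).det • (h x)⁻¹)
  rw [h1, Matrix.det_smul, Fintype.card_fin, Real.sqrt_mul (pow_pos (hc x) n).le, smul_smul,
    smul_smul]
  congr 1
  ring

/-- `√(det g) g⁻¹` is near `σ · 1` if `g` is near `c · 1`. -/
theorem norm_base607 (c : V n → ℝ) (hc : ContDiff ℝ ∞ c) (hc0 : ∀ x, 0 < c x) (k : ℕ) {ε : ℝ}
    (hε : 0 < ε) : ∃ δ > 0, ∀ g : MF n, SmM g → (∀ x, (g x).PosDef) →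
    (∀ x ∉ core n, g x = sc c x) → (∀ i j, Cl k δ (fun x => g x i j - sc c x i j)) →
    ∀ i j, Cl k ε (fun x => sg g x i j - sc (sgm442 c) x i j) := by
  have hci : ContDiff ℝ ∞ (fun x => (c x)⁻¹) := hc.inv fun x => ne_of_gt (hc0 x)
  obtain ⟨C1, hC1, h1⟩ := H924.cl_mul (n := n) (fun x => (c x)⁻¹) hci k
  obtain ⟨C2, hC2, h2⟩ := H924.cl_mul (sgm442 c) (sgm_smooth442 hc hc0) k
  obtain ⟨δ0, hδ0, h0⟩ := H72.norm0 n k (ε / C2) (by positivity)
  refine ⟨δ0 / C1, by positivity, fun g hg hgp hoff hcl => ?_⟩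
  obtain ⟨h, hh⟩ : ∃ h : MF n, h = fun x => (c x)⁻¹ • g x := ⟨_, rfl⟩
  have hhe : ∀ x i j, h x i j - (1 : Matrix (Fin n) (Fin n) ℝ) i j
      = (c x)⁻¹ * (g x i j - sc c x i j) := by
    intro x i j
    have h3 : c x ≠ 0 := ne_of_gt (hc0 x)
    rw [hh]
    simp only [sc, Matrix.smul_apply, smul_eq_mul]
    rw [mul_sub, ← mul_assoc, inv_mul_cancel₀ h3, one_mul]
  have hhs : SmM h := by
    intro i j
    have h3 : (fun x => h x i j) = fun x => (c x)⁻¹ * g x i j := by rw [hh]; rfl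
    rw [h3]
    exact hci.mul (hg i j)
  have hhp : ∀ x, (h x).PosDef := by
    intro x
    rw [hh]
    exact (hgp x).smul (inv_pos.2 (hc0 x))
  have hscs : ∀ i j, ContDiff ℝ ∞ (fun x => sc c x i j) := fun i j => smM_sc442 hc i j
  have hhc : ∀ i j, Cl k δ0 (fun x => h x i j - (1 : Matrix (Fin n) (Fin n) ℝ) i j) := by
    intro i j
    have h3 := h1 (fun x => g x i j - sc c x i j) ((hg i j).sub (hscs i j))
      (fun x hx => by rw [hoff x hx, sub_self]) _ (hcl i j)
    rw [mul_div_cancel₀ _ hC1.ne'] at h3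
    have h4 : (fun x => h x i j - (1 : Matrix (Fin n) (Fin n) ℝ) i j)
        = fun x => (c x)⁻¹ * (g x i j - sc c x i j) := funext fun x => hhe x i j
    rw [h4]; exact h3
  have hh1 : ∀ x ∉ core n, h x = 1 := by
    intro x hx
    have h3 : c x ≠ 0 := ne_of_gt (hc0 x)
    rw [hh]
    show (c x)⁻¹ • g x = 1
    rw [hoff x hx]
    show (c x)⁻¹ • (c x • (1 : Matrix (Fin n) (Fin n) ℝ)) = 1
    rw [smul_smul, inv_mul_cancel₀ h3, one_smul]
  have hsh1 : ∀ x ∉ core n, sg h x = 1 := by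
    intro x hx
    show √(h x).det • (h x)⁻¹ = 1
    rw [hh1 x hx, Matrix.det_one, Real.sqrt_one, one_smul, inv_one]
  have hshs : SmM (sg h) := H442.smM_sg442 hhs hhp
  have hge : g = fun x => c x • h x := by
    funext x
    have h3 : c x ≠ 0 := ne_of_gt (hc0 x)
    rw [hh]
    show g x = c x • ((c x)⁻¹ • g x)
    rw [smul_smul, mul_inv_cancel₀ h3, one_smul]
  intro i j
  have h5 := h2 (fun x => sg h x i j - (1 : Matrix (Fin n) (Fin n) ℝ) i j)
    ((hshs i j).sub contDiff_const) (fun x hx => by rw [hsh1 x hx, sub_self]) _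
    (h0 h hhs hhc i j)
  rw [mul_div_cancel₀ _ hC2.ne'] at h5
  have h6 : (fun x => sg g x i j - sc (sgm442 c) x i j)
      = fun x => sgm442 c x * (sg h x i j - (1 : Matrix (Fin n) (Fin n) ℝ) i j) := by
    funext x
    have h7 : sg g x = sgm442 c x • sg h x := by
      rw [hge]
      exact sg_smul607 hc0 hhp x
    rw [h7]
    simp only [sc, Matrix.smul_apply, smul_eq_mul]
    ring
  rw [h6]; exact h5

/-- **Row Y_SC.** -/
theorem finCC (hF : BY.RowFIN) : BY.FinCC := by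
  intro n hn ρ hρ c hcP
  obtain ⟨hc, hc0⟩ := hcP
  obtain ⟨t, ht1, ρ', hρ', hoff, hpos, hz, hχρ⟩ := exists_dom_bal hρ
  have ht0 : 0 < t := by linarith
  obtain ⟨B, hB⟩ : ∃ B : ℕ → ℝ, ∀ k, 0 < B k ∧ Cl k (B k) (chi442 : V n → ℝ) := by
    choose B hB using fun k => chi_cl442 n k
    exact ⟨B, hB⟩
  -- the cut-off conformal factor
  obtain ⟨c', hc'e⟩ : ∃ c' : V n → ℝ, c' = fun y => 1 + chi442 y * (c (ps t y) - 1) := ⟨_, rfl⟩
  have hcps : ContDiff ℝ ∞ (fun y => c (ps t y) - 1) :=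
    (hc.comp (contDiff_ps t)).sub contDiff_const
  have hc's : ContDiff ℝ ∞ c' := by
    rw [hc'e]; exact contDiff_const.add (chi_smooth442.mul hcps)
  have hc'0 : ∀ y, 0 < c' y := by
    intro y
    have h1 := chi_nonneg442 y
    have h2 := chi_le_one442 y
    have h3 := hc0 (ps t y)
    have h4 : c' y = (1 - chi442 y) + chi442 y * c (ps t y) := by rw [hc'e]; ring
    rw [h4]
    rcases h2.lt_or_eq with h5 | h5
    · have := mul_nonneg h1 h3.le
      linarith
    · rw [h5]; linarith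
  have hc'1 : ∀ y ∉ bal n, c' y = 1 := by
    intro y hy
    rw [hc'e]
    show 1 + chi442 y * (c (ps t y) - 1) = 1
    rw [chi_zero442 hy]; ring
  have hc'on : ∀ y, 0 ≤ ρ' y → c' y = c (ps t y) := by
    intro y hy
    rw [hc'e]
    show 1 + chi442 y * (c (ps t y) - 1) = _
    rw [hχρ y hy]; ring
  have hσ1 : ∀ x ∉ bal n, sgm442 c' x = 1 := by
    intro x hx
    rw [sgm442, hc'1 x hx, one_pow, Real.sqrt_one, inv_one, one_mul]
  obtain ⟨k, ε, hε, hF⟩ := hF n hn ρ' hρ' hoff (sgm442 c')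
    ⟨sgm_smooth442 hc's hc'0, sgm_pos442 hc'0⟩ hσ1
  obtain ⟨δ0, hδ0, hnorm⟩ := norm_base607 c' hc's hc'0 k hε
  obtain ⟨hBk, hχ⟩ := hB k
  have hM : 0 < max 1 t ^ k := by positivity
  refine ⟨k, δ0 / (2 ^ k * (B k * max 1 t ^ k)), by positivity, fun g hg hgp hgC hSE => ?_⟩
  have hOm : Om ρ' = ps t ⁻¹' Om ρ := by
    ext y
    exact hpos y
  have hO : IsOpen (Om ρ) := isOpen_lt continuous_const hρ.sm.continuous
  have hO' : IsOpen (Om ρ') := isOpen_lt continuous_const hρ'.sm.continuous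
  -- the cut-off metric
  obtain ⟨g', hg'e⟩ : ∃ g' : MF n, g' = fun y =>
    (1 - chi442 y) • (1 : Matrix (Fin n) (Fin n) ℝ) + chi442 y • rs t g y := ⟨_, rfl⟩
  have hg'i : ∀ y i j, g' y i j = (1 - chi442 y) * (1 : Matrix (Fin n) (Fin n) ℝ) i j
      + chi442 y * g (ps t y) i j := by
    intro y i j
    rw [hg'e]; rfl
  have hg's : SmM g' := by
    intro i j
    have h1 : (fun y => g' y i j) = fun y => (1 - chi442 y) * (1 : Matrix (Fin n) (Fin n) ℝ) i j
      + chi442 y * g (ps t y) i j := funext fun y => hg'i y i j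
    rw [h1]
    exact ((contDiff_const.sub chi_smooth442).mul contDiff_const).add
      (chi_smooth442.mul ((hg i j).comp (contDiff_ps t)))
  have hg'p : ∀ y, (g' y).PosDef := by
    intro y
    rw [hg'e]
    show ((1 - chi442 y) • (1 : Matrix (Fin n) (Fin n) ℝ) + chi442 y • rs t g y).PosDef
    have h1 := chi_le_one442 y
    rcases (chi_nonneg442 y).lt_or_eq with h2 | h2
    · have h3 : (chi442 y • rs t g y).PosDef := (hgp _).smul h2
      have h4 : ((1 - chi442 y) • (1 : Matrix (Fin n) (Fin n) ℝ)).PosSemidef :=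
        Matrix.PosDef.one.posSemidef.smul (by linarith)
      exact Matrix.PosDef.posSemidef_add h4 h3
    · rw [← h2, sub_zero, one_smul, zero_smul, add_zero]
      exact Matrix.PosDef.one
  have hg'on : ∀ y, 0 ≤ ρ' y → g' y = g (ps t y) := by
    intro y hy
    rw [hg'e]
    show (1 - chi442 y) • (1 : Matrix (Fin n) (Fin n) ℝ) + chi442 y • g (ps t y) = _
    rw [hχρ y hy, sub_self, zero_smul, one_smul, zero_add]
  have hg'off : ∀ y ∉ core n, g' y = sc c' y := by
    intro y hy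
    have hy' : y ∉ bal n := fun h => hy (bal_subset_core442 h)
    rw [hg'e]
    show (1 - chi442 y) • (1 : Matrix (Fin n) (Fin n) ℝ) + chi442 y • rs t g y = c' y • 1
    rw [chi_zero442 hy', hc'1 y hy', sub_zero, zero_smul, add_zero]
  have hg'c : ∀ i j, Cl k δ0 (fun y => g' y i j - sc c' y i j) := by
    intro i j
    have hs : ContDiff ℝ ∞ (fun x => g x i j - sc c x i j) := (hg i j).sub (smM_sc442 hc i j)
    have h1 := cl_mul442 chi_smooth442 (hs.comp (contDiff_ps t)) hχ (cl_ps hs ht0 (hgC i j))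
    have hfin : 2 ^ k * (B k * (max 1 t ^ k * (δ0 / (2 ^ k * (B k * max 1 t ^ k))))) = δ0 := by
      field_simp
    rw [hfin] at h1
    have h2 : (fun y => g' y i j - sc c' y i j)
        = fun y => chi442 y * ((fun x => g x i j - sc c x i j) ∘ ps t) y := by
      funext y
      rw [hg'i y i j, hc'e]
      simp only [sc, Matrix.smul_apply, smul_eq_mul, Function.comp_apply]
      ring
    rw [h2]; exact h1
  have hSE' : SE (Om ρ') (sc (sgm442 c')) (sg g') := by
    have h1 := SE_ps607 t ht0 (Om ρ) hO _ _ hSE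
    rw [← hOm] at h1
    intro f hf
    have h2 := h1 f hf
    have h3 : En (Om ρ') (sc (sgm442 c')) f = En (Om ρ') (rs t (sg (sc c))) f := by
      refine En_congr607 hO'.measurableSet (fun y hy => ?_) f
      have hy' : 0 < ρ' y := hy
      rw [sg_sc442 hc0]
      show sgm442 c' y • (1 : Matrix (Fin n) (Fin n) ℝ) = sgm442 c (ps t y) • 1
      unfold sgm442
      rw [hc'on y hy'.le]
    have h4 : En (Om ρ') (sg g') f = En (Om ρ') (rs t (sg g)) f := by
      refine En_congr607 hO'.measurableSet (fun y hy => ?_) f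
      have hy' : 0 < ρ' y := hy
      show √(g' y).det • (g' y)⁻¹ = √(g (ps t y)).det • (g (ps t y))⁻¹
      rw [hg'on y hy'.le]
    rw [h3, h2, h4]
  obtain ⟨Φ, Ψ, hΦ, hΨ, h1, h2, h3, h4, h5, h6⟩ := hF (sg g')
    (H442.smM_sg442 hg's hg'p) (posDef_sg607 hg'p) (hnorm g' hg's hg'p hg'off hg'c) hSE'
  -- the metric
  have hmet : ∀ y, 0 ≤ ρ' y → g (ps t y) = c (ps t (Φ y)) • ((Jm Φ y)ᵀ * Jm Φ y) := by
    intro y hy
    have hΦy : 0 ≤ ρ' (Φ y) := by
      rcases hy.lt_or_eq with h | h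
      · exact ((h4 y).2 h).le
      · rw [h3 y h.symm]; exact hy
    rw [← hc'on _ hΦy, ← hg'on y hy]
    have h7 := h6 y hy
    rw [← sg_sc442 hc'0] at h7
    obtain ⟨m, rfl⟩ : ∃ m, n = m + 3 := ⟨n - 3, by omega⟩
    exact H695.iso_mat2 (Jm Φ y) (g' y) (hc'0 _) (h5 y) (hg'p y).det_pos h7
  refine ⟨fun x => ps t (Φ (ph t x)), fun x => ps t (Ψ (ph t x)),
    (contDiff_ps t).comp (hΦ.comp (contDiff_ph t)), (contDiff_ps t).comp (hΨ.comp (contDiff_ph t)),
    ?_, ?_, ?_, ?_, ?_, ?_⟩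
  · intro x
    show ps t (Ψ (ph t (ps t (Φ (ph t x))))) = x
    rw [ph_ps ht0.ne', h1, ps_ph ht0.ne']
  · intro x
    show ps t (Φ (ph t (ps t (Ψ (ph t x))))) = x
    rw [ph_ps ht0.ne', h2, ps_ph ht0.ne']
  · intro x hx
    show ps t (Φ (ph t x)) = x
    rw [h3 (ph t x) ((hz _).2 (by rw [ps_ph ht0.ne']; exact hx)), ps_ph ht0.ne']
  · intro x
    show 0 < ρ (ps t (Φ (ph t x))) ↔ _
    rw [← hpos, h4, hpos, ps_ph ht0.ne']
  · intro x
    rw [Jm_scale hΦ ht0.ne']
    exact h5 _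
  · intro x hx
    rw [Jm_scale hΦ ht0.ne']
    have hx' : 0 ≤ ρ' (ph t x) := by
      rcases hx.lt_or_eq with h | h
      · exact ((hpos _).2 (by rw [ps_ph ht0.ne']; exact h)).le
      · exact ((hz _).2 (by rw [ps_ph ht0.ne']; exact h.symm)).ge
    have h7 := hmet (ph t x) hx'
    rwa [ps_ph ht0.ne'] at h7

end Vale.Agent.P088.H607
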