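import Vale.Agent.P088.H442.C.Defs
import Vale.Agent.P088.H833.Phi
import Vale.Agent.P088.H607.DiffC

/-!
# P088, Theorem C: row C_PH
-/

open MeasureTheory Set
open scoped ContDiff Matrix

noncomputable section

namespace Vale.Agent.P088.H607

open Vale.Agent.P088.LR Vale.Agent.P088.LR.CF

variable {n : ℕ}

/-- The derivatives of `id + w`. -/
theorem id_add_bound {w : V n → V n} (hw : ContDiff ℝ ∞ w) {k : ℕ} {ε : ℝ} (h : Cl k ε w) :
    ∀ i, 1 ≤ i → i ≤ k → ∀ x, ‖iteratedFDeriv ℝ i (fun x => x + w x) x‖ ≤ 1 + ε := by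
  intro i hi hik x
  obtain ⟨m, rfl⟩ : ∃ m, i = m + 1 := ⟨i - 1, by omega⟩
  have hd : fderiv ℝ (fun x => x + w x) = fun x =>
      ContinuousLinearMap.id ℝ (V n) + fderiv ℝ w x := by
    funext y
    have e1 : HasFDerivAt w (fderiv ℝ w y) y := (hw.differentiable (by simp) y).hasFDerivAt
    exact ((hasFDerivAt_id (𝕜 := ℝ) y).add e1).fderiv
  have hw' : ContDiff ℝ ∞ (fderiv ℝ w) := hw.fderiv_right (m := ∞) (by simp)
  rw [← norm_iteratedFDeriv_fderiv, hd]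
  have e5 : iteratedFDeriv ℝ m (fun x => ContinuousLinearMap.id ℝ (V n) + fderiv ℝ w x) x =
      iteratedFDeriv ℝ m (fun _ : V n => ContinuousLinearMap.id ℝ (V n)) x +
        iteratedFDeriv ℝ m (fderiv ℝ w) x :=
    iteratedFDeriv_add_apply contDiff_const.contDiffAt
      (hw'.of_le (by exact_mod_cast le_top)).contDiffAt
  rw [e5]
  have e2 : ‖iteratedFDeriv ℝ m (fun _ : V n => ContinuousLinearMap.id ℝ (V n)) x‖ ≤ 1 := by
    rcases Nat.eq_zero_or_pos m with h0 | h0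
    · subst h0
      rw [norm_iteratedFDeriv_zero]
      exact ContinuousLinearMap.norm_id_le
    · rw [iteratedFDeriv_const_of_ne (by omega)]
      simp
  have e3 : ‖iteratedFDeriv ℝ m (fderiv ℝ w) x‖ ≤ ε := by
    rw [norm_iteratedFDeriv_fderiv]
    exact h (m + 1) hik x
  exact (norm_add_le _ _).trans (add_le_add e2 e3)

/-- Composition with the inverse of a map near the identity, all orders `l ≤ k`. -/
theorem comp_inv_bound (k : ℕ) : ∃ C : ℝ, 1 ≤ C ∧ ∀ (n : ℕ) (w K : V n → V n),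
    ContDiff ℝ ∞ w → ContDiff ℝ ∞ K → (∀ y, K y + w (K y) = y) → Cl (k + 1) (1 / 2) w →
    ∀ l ≤ k, ∀ f : V n → ℝ, ContDiff ℝ ∞ f → ∀ η, Cl l η f → Cl l (C * η) (fun y => f (K y)) := by
  obtain ⟨D, hD1, hD⟩ := H634.bound_inv k
  have hC1 : 1 ≤ (k.factorial : ℝ) * D ^ k := by
    have h1 : (1 : ℝ) ≤ k.factorial := by exact_mod_cast Nat.one_le_iff_ne_zero.2 k.factorial_ne_zero
    have h2 : (1 : ℝ) ≤ D ^ k := one_le_pow₀ hD1
    nlinarith
  refine ⟨(k.factorial : ℝ) * D ^ k, hC1, ?_⟩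
  intro n w K hw hK hr hcl l hl f hf δ hδ m hm x
  have hδ0 : 0 ≤ δ := (norm_nonneg _).trans (hδ 0 (Nat.zero_le _) x)
  have := norm_iteratedFDeriv_comp_le (g := f) (f := K) (N := ∞) hf hK
    (n := m) (by exact_mod_cast le_top) x (C := δ) (D := D) (fun j hj => hδ j (by omega) _)
    (fun j hj1 hj2 => hD n w _ hw hK hr hcl j hj1 (by omega) x)
  refine this.trans ?_
  calc (m.factorial : ℝ) * δ * D ^ m ≤ (k.factorial : ℝ) * δ * D ^ k := by
        have h2 : (m.factorial : ℝ) ≤ k.factorial := by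
          exact_mod_cast Nat.factorial_le (hm.trans hl)
        have h3 : D ^ m ≤ D ^ k := pow_le_pow_right₀ hD1 (hm.trans hl)
        gcongr
    _ = (k.factorial : ℝ) * D ^ k * δ := by ring

/-- **Row C_PH.** -/
theorem phc : CC.RowPHC := by
  intro n k
  obtain ⟨C1, ε1, hC1, hε1, hphi⟩ := H833.phi n k
  obtain ⟨C2, hC2, hcomp⟩ := comp_inv_bound k
  obtain ⟨D, hD1, hD⟩ := H634.bound_inv (k + 1)
  obtain ⟨C3, hC3, hdiff⟩ := diffc k 2 (D ^ (k + 1)) (by norm_num) (by positivity)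
  refine ⟨max C2 C3, min ε1 (min (1 / 2) (1 / (2 * C1))), le_max_of_le_left hC2, by positivity, ?_⟩
  intro Ω w₁ w₂ hw₁ hw₂ hoff hc1 hc2
  set ε₀ : ℝ := min ε1 (min (1 / 2) (1 / (2 * C1))) with hε₀
  have hε₀0 : 0 < ε₀ := by positivity
  have hε₀1 : ε₀ ≤ ε1 := min_le_left _ _
  have hε₀2 : ε₀ ≤ 1 / 2 := (min_le_right _ _).trans (min_le_left _ _)
  have hε₀3 : ε₀ ≤ 1 / (2 * C1) := (min_le_right _ _).trans (min_le_right _ _)
  obtain ⟨w, K, hD', hwc, hid, -⟩ := hphi Ω w₁ w₂ hw₁ hw₂ hoff ε₀ hε₀0.le hε₀1 hc1 hc2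
  have hwc' : Cl (k + 1) (1 / 2) w := by
    refine H72.cl_mono hwc ?_
    calc C1 * ε₀ ≤ C1 * (1 / (2 * C1)) := by gcongr
      _ = 1 / 2 := by field_simp
  obtain ⟨CC, εC, -, -, hDIF⟩ := H634.rowDIF n 0
  -- the inverse of `id + w₁`
  have h1 : ∀ x, ‖fderiv ℝ w₁ x‖ ≤ 1 / 2 := fun x => by
    rw [← norm_iteratedFDeriv_one]
    exact (hc1 1 (by omega) x).trans hε₀2
  obtain ⟨K₁, hK₁⟩ : ∃ K₁ : V n → V n, K₁ = (H634.hom hw₁ h1).symm := ⟨_, rfl⟩
  have hK₁s : ContDiff ℝ ∞ K₁ := by rw [hK₁]; exact H634.hom_symm_smooth hw₁ h1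
  have hK₁l : ∀ x, K₁ (x + w₁ x) = x := fun x => by
    rw [hK₁, ← H634.hom_apply hw₁ h1 x]; exact (H634.hom hw₁ h1).symm_apply_apply x
  have hK₁r : ∀ y, K₁ y + w₁ (K₁ y) = y := fun y => by
    rw [hK₁, ← H634.hom_apply hw₁ h1 ((H634.hom hw₁ h1).symm y)]
    exact (H634.hom hw₁ h1).apply_symm_apply y
  have hwe : w = fun x => K₁ ((x + w₁ x) + (w₂ x - w₁ x)) - K₁ (x + w₁ x) := by
    funext x
    have e1 : (x + w₁ x) + (w₂ x - w₁ x) = x + w₂ x := by abel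
    rw [e1, ← hid x, hK₁l, hK₁l]
    abel
  have hτb : ∀ i, 1 ≤ i → i ≤ k + 1 → ∀ x, ‖iteratedFDeriv ℝ i K₁ x‖ ≤ D ^ (k + 1) := by
    intro i hi1 hi2 x
    exact (hD n w₁ K₁ hw₁ hK₁s hK₁r (H72.cl_mono hc1 hε₀2) i hi1 hi2 x).trans
      (pow_le_pow_right₀ hD1 hi2)
  have hAb : ∀ i, 1 ≤ i → i ≤ k → ∀ x, ‖iteratedFDeriv ℝ i (fun x => x + w₁ x) x‖ ≤ 2 := by
    intro i hi1 hi2 x
    refine (id_add_bound hw₁ hc1 i hi1 (by omega) x).trans ?_
    linarith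
  have hvs : ContDiff ℝ ∞ (fun x => w₂ x - w₁ x) := hw₂.sub hw₁
  have hmain : ∀ δ, δ ≤ 1 → Cl k δ (fun x => w₂ x - w₁ x) → Cl k (C3 * δ) w := by
    intro δ hδ hcl
    have := hdiff n (V n) K₁ (fun x => x + w₁ x) (fun x => w₂ x - w₁ x) hK₁s
      (contDiff_id.add hw₁) hvs hτb hAb δ hδ hcl
    rw [hwe]
    exact this
  refine ⟨w, K, hD', fun η hη => ?_, hid, fun l hl f hf η hη => ?_⟩
  · have hη0 : 0 ≤ η := (norm_nonneg _).trans (hη 0 (Nat.zero_le _) 0)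
    rcases le_or_gt η 1 with h | h
    · exact H72.cl_mono (hmain η h hη) (mul_le_mul_of_nonneg_right (le_max_right _ _) hη0)
    · have hcl1 : Cl k 1 (fun x => w₂ x - w₁ x) := by
        intro l hl x
        have e5 : iteratedFDeriv ℝ l (fun x => w₂ x - w₁ x) x =
            iteratedFDeriv ℝ l w₂ x - iteratedFDeriv ℝ l w₁ x :=
          iteratedFDeriv_sub_apply (hw₂.of_le (by exact_mod_cast le_top)).contDiffAt
            (hw₁.of_le (by exact_mod_cast le_top)).contDiffAt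
        rw [e5]
        calc ‖iteratedFDeriv ℝ l w₂ x - iteratedFDeriv ℝ l w₁ x‖
            ≤ ‖iteratedFDeriv ℝ l w₂ x‖ + ‖iteratedFDeriv ℝ l w₁ x‖ := norm_sub_le _ _
          _ ≤ 1 / 2 + 1 / 2 := add_le_add ((hc2 l (by omega) x).trans hε₀2)
              ((hc1 l (by omega) x).trans hε₀2)
          _ = 1 := by norm_num
      refine H72.cl_mono (hmain 1 le_rfl hcl1) ?_
      calc C3 * 1 ≤ C3 * η := by gcongr
        _ ≤ max C2 C3 * η := mul_le_mul_of_nonneg_right (le_max_right _ _) hη0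
  · have hη0 : 0 ≤ η := (norm_nonneg _).trans (hη 0 (Nat.zero_le _) 0)
    exact H72.cl_mono (hcomp n w K hD'.sw hD'.sK hD'.r hwc' l hl f hf η hη)
      (mul_le_mul_of_nonneg_right (le_max_left _ _) hη0)

end Vale.Agent.P088.H607
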